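import Vale.Agent.P137.CFinal

namespace Vale.Agent.Results.P137.Both

open MeasureTheory Vale.Agent.P137

theorem result (d : ℕ) (hd : 1 ≤ d) : ∃ C : ℝ,
    ∀ (f : EuclideanSpace ℝ (Fin d) → ℝ) (G : EuclideanSpace ℝ (Fin d) → EuclideanSpace ℝ (Fin d)),
      Integrable f → Integrable G → IsWeakGrad f G →
      ((∀ᵐ x, Mc f x < ⊤) ∧ LocallyIntegrable (fun x => (Mc f x).toReal) volume ∧
        ∃ H : EuclideanSpace ℝ (Fin d) → EuclideanSpace ℝ (Fin d), Integrable H ∧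
          IsWeakGrad (fun x => (Mc f x).toReal) H ∧ ∫ x, ‖H x‖ ≤ C * ∫ x, ‖G x‖) ∧
      ((∀ᵐ x, Mt f x < ⊤) ∧ LocallyIntegrable (fun x => (Mt f x).toReal) volume ∧
        ∃ H : EuclideanSpace ℝ (Fin d) → EuclideanSpace ℝ (Fin d), Integrable H ∧
          IsWeakGrad (fun x => (Mt f x).toReal) H ∧ ∫ x, ‖H x‖ ≤ C * ∫ x, ‖G x‖) := by
  haveI : Nonempty (Fin d) := ⟨⟨0, hd⟩⟩
  obtain ⟨C1, h1⟩ := mainC (E := EuclideanSpace ℝ (Fin d))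
  obtain ⟨C2, h2⟩ := main (E := EuclideanSpace ℝ (Fin d))
  refine ⟨max C1 C2, fun f G hf hG hw => ?_⟩
  have h0 : 0 ≤ ∫ x, ‖G x‖ := integral_nonneg fun x => norm_nonneg _
  obtain ⟨a1, a2, H1, a3, a4, a5⟩ := h1 f G hf hG hw
  obtain ⟨b1, b2, H2, b3, b4, b5⟩ := h2 f G hf hG hw
  exact ⟨⟨a1, a2, H1, a3, a4, a5.trans (mul_le_mul_of_nonneg_right (le_max_left _ _) h0)⟩,
    ⟨b1, b2, H2, b3, b4, b5.trans (mul_le_mul_of_nonneg_right (le_max_right _ _) h0)⟩⟩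

end Vale.Agent.Results.P137.Both
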