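import Vale.Agent.P137.Final

namespace Vale.Agent.Results.P137.Uncentered

open MeasureTheory Vale.Agent.P137

theorem result (d : ℕ) (hd : 1 ≤ d) : ∃ C : ℝ,
    ∀ (f : EuclideanSpace ℝ (Fin d) → ℝ) (G : EuclideanSpace ℝ (Fin d) → EuclideanSpace ℝ (Fin d)),
      Integrable f → Integrable G → IsWeakGrad f G →
      (∀ᵐ x, Mt f x < ⊤) ∧ LocallyIntegrable (fun x => (Mt f x).toReal) volume ∧
        ∃ H : EuclideanSpace ℝ (Fin d) → EuclideanSpace ℝ (Fin d), Integrable H ∧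
          IsWeakGrad (fun x => (Mt f x).toReal) H ∧ ∫ x, ‖H x‖ ≤ C * ∫ x, ‖G x‖ := by
  haveI : Nonempty (Fin d) := ⟨⟨0, hd⟩⟩
  exact main

end Vale.Agent.Results.P137.Uncentered
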